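import Crest.Agent.Helper72.S0112.Calc

/-! # S0112: the interface consumed by the assembly

`Pkg S` collects, as hypotheses, the outputs of the work packages A3, A5/D, B, C, E (facts about the
modular datum `S`), and `Gen H` the Mathlib-only packages F, G, H, I1 instantiated at the Hilbert space
`H`.  `Main.lean` proves the statement of S0112 from `Pkg S` and `Gen H`. -/

set_option autoImplicit false

namespace Crest.Agent.Helper72.S0112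

open Crest.OpAlg Filter MeasureTheory Set
open scoped Topology BoundedContinuousFunction

variable {H : Type*} [NormedAddCommGroup H] [InnerProductSpace ℂ H] [CompleteSpace H]

/-- The four phases `1, i, -1, -i`. -/
noncomputable def ph (a : Fin 4) : ℂ := Complex.I ^ (a : ℕ)

/-- The kernel property (package B) with constant `C₀`. -/
def KernelProp (C₀ : ℝ) : Prop :=
  ∀ s δ : ℝ, 0 < δ → ∃ f : ℝ → ℂ, Integrable f ∧ (∫ t, ‖f t‖) ≤ C₀ ∧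
    ∃ F : BoundedContinuousFunction ℝ ℂ,
      (∀ u, F u = ∫ t, f t * Complex.exp (Complex.I * ((t * u : ℝ) : ℂ))) ∧
      (∀ u, ‖F u‖ ≤ 1) ∧ (∀ u ∈ Icc (s - δ) (s + δ), F u = 1) ∧
      (∀ u, u ∉ Icc (s - 2 * δ) (s + 2 * δ) → F u = 0)

/-- Facts about the modular datum (packages A3, C, D, E). -/
structure Pkg (S : ModularDatum H) : Prop where
  wave_vac : ∀ t, S.D.wave t S.vac = S.vac
  cont : ∀ x : H, Continuous fun t => S.D.wave t x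
  smooth : ∀ (f : ℝ → ℂ), Integrable f → ∀ (F : BoundedContinuousFunction ℝ ℂ),
    (∀ u, F u = ∫ t, f t * Complex.exp (Complex.I * ((t * u : ℝ) : ℂ))) →
    ∀ α β : ℝ, (∀ u, u ∉ Icc α β → F u = 0) → ∀ a : H →L[ℂ] H, a ∈ S.M →
    ∃ a' : H →L[ℂ] H, a' ∈ S.M ∧ ‖a'‖ ≤ (∫ t, ‖f t‖) * ‖a‖ ∧
      a' S.vac = S.D.apply F (a S.vac) ∧ S.D.SupportedIn (Icc (-β) (-α)) (star a' S.vac)
  norm_star : ∀ a : H →L[ℂ] H, a ∈ S.M → ∀ α β : ℝ, S.D.SupportedIn (Icc α β) (a S.vac) →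
    ‖star a S.vac‖ ≤ Real.exp (β / 2) * ‖a S.vac‖
  kms : ∀ a : H →L[ℂ] H, a ∈ S.M → ∀ α β : ℝ, S.D.SupportedIn (Icc α β) (star a S.vac) →
    ∃ w : H, inner ℂ S.vac w = ((‖a S.vac‖ ^ 2 : ℝ) : ℂ) ∧
      ∀ (t : ℝ) (r : H →L[ℂ] H), r ∈ S.M →
        inner ℂ (S.flow t a S.vac) (r (S.flow t a S.vac)) = inner ℂ (S.D.wave t w) (r S.vac)
  ergodic : ∀ z : H, Tendsto
    (fun k : ℕ => ((2 * (k : ℝ))⁻¹ : ℝ) • ∫ t in (-(k : ℝ))..(k : ℝ), S.D.wave t z)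
    atTop (𝓝 (inner ℂ S.vac z • S.vac))

/-- Mathlib-only packages (F, G, H, I1) at the Hilbert space `H`. -/
structure Gen (H : Type*) [NormedAddCommGroup H] [InnerProductSpace ℂ H] [CompleteSpace H] :
    Prop where
  riemannH : ∀ (Ψ : ℝ → H), Continuous Ψ → ∀ k : ℝ, 0 < k → Tendsto
    (fun N : ℕ => ((N : ℝ)⁻¹ : ℝ) • ∑ i ∈ Finset.range N, Ψ (-k + 2 * k * i / N)) atTop
    (𝓝 (((2 * k)⁻¹ : ℝ) • ∫ t in (-k)..k, Ψ t))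
  riemannR : ∀ (Ψ : ℝ → ℝ), Continuous Ψ → ∀ k : ℝ, 0 < k → Tendsto
    (fun N : ℕ => ((N : ℝ)⁻¹ : ℝ) * ∑ i ∈ Finset.range N, Ψ (-k + 2 * k * i / N)) atTop
    (𝓝 ((2 * k)⁻¹ * ∫ t in (-k)..k, Ψ t))
  moment2 : ∀ (N : ℕ) (x : Fin N → H →L[ℂ] H) (T : H →L[ℂ] H) (v : H),
    ∑ θ : Fin N → Fin 4, ‖T ((∑ i, ph (θ i) • x i) v)‖ ^ 2 = 4 ^ N * ∑ i, ‖T (x i v)‖ ^ 2
  moment4 : ∀ (N : ℕ) (x : Fin N → H →L[ℂ] H) (v : H),
    ∑ θ : Fin N → Fin 4, ‖star (∑ i, ph (θ i) • x i) ((∑ i, ph (θ i) • x i) v)‖ ^ 2 ≤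
      4 ^ N * (‖(∑ i, star (x i) * x i) v‖ ^ 2 +
        ∑ j, (inner ℂ (x j v) ((∑ i, x i * star (x i)) (x j v))).re)
  trunc : ∀ (v : H →L[ℂ] H) (R : ℝ), 0 < R → ∃ w : H →L[ℂ] H,
    ‖v * w‖ ≤ Real.sqrt R / 2 ∧
    (∀ x : H, ‖v x - (v * w) x‖ ≤ ‖(star v * v) x‖ / (2 * Real.sqrt R)) ∧
    ∀ M : VonNeumannAlgebra H, v ∈ M → v * w ∈ M
  ultra : ∀ (ω : Ultrafilter ℕ) (f : ℝ → ℝ), Continuous f → ∀ B : ℝ, (∀ t, 0 ≤ f t) →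
    (∀ t, f t ≤ B) → ∀ c : ℝ, 0 < c → c ≤ ultraMean ω f →
    ∀ᶠ k : ℕ in (ω : Filter ℕ),
      3 * c / 4 < (2 * (k : ℝ))⁻¹ * ∫ t in (-(k : ℝ))..(k : ℝ), f t

end Crest.Agent.Helper72.S0112
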