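import Crest.Prelude.Def_ModularData

/-! # S0112 toolkit, part A: the bounded continuous calculus of `LineCalculus`. -/

set_option autoImplicit false

namespace Crest.Agent.Helper72.S0112

open Crest.OpAlg Filter MeasureTheory
open scoped Topology BoundedContinuousFunction

variable {H : Type*} [NormedAddCommGroup H] [InnerProductSpace ℂ H] [CompleteSpace H]

namespace Calc

variable (D : LineCalculus H)

/-- The calculus is contractive. -/
theorem norm_apply_le (f : BoundedContinuousFunction ℝ ℂ) : ‖D.apply f‖ ≤ ‖f‖ :=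
  NonUnitalStarAlgHom.norm_apply_le D.apply f

theorem norm_apply_apply_le (f : BoundedContinuousFunction ℝ ℂ) (x : H) :
    ‖D.apply f x‖ ≤ ‖f‖ * ‖x‖ :=
  (ContinuousLinearMap.le_opNorm _ _).trans
    (mul_le_mul_of_nonneg_right (norm_apply_le D f) (norm_nonneg _))

theorem apply_mul (f g : BoundedContinuousFunction ℝ ℂ) (x : H) :
    D.apply (f * g) x = D.apply f (D.apply g x) := by
  rw [map_mul]; rfl

theorem apply_comm (f g : BoundedContinuousFunction ℝ ℂ) (x : H) :
    D.apply f (D.apply g x) = D.apply g (D.apply f x) := by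
  rw [← apply_mul, ← apply_mul, mul_comm]

theorem apply_one (x : H) : D.apply 1 x = x := by
  rw [map_one]; rfl

theorem apply_add (f g : BoundedContinuousFunction ℝ ℂ) (x : H) :
    D.apply (f + g) x = D.apply f x + D.apply g x := by
  rw [map_add]; rfl

theorem apply_sub (f g : BoundedContinuousFunction ℝ ℂ) (x : H) :
    D.apply (f - g) x = D.apply f x - D.apply g x := by
  rw [map_sub]; rfl

theorem apply_smul (c : ℂ) (f : BoundedContinuousFunction ℝ ℂ) (x : H) :
    D.apply (c • f) x = c • D.apply f x := by
  rw [map_smul]; rfl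

theorem apply_star (f : BoundedContinuousFunction ℝ ℂ) :
    D.apply (star f) = ContinuousLinearMap.adjoint (D.apply f) := by
  rw [map_star]; rfl

theorem inner_apply_left (f : BoundedContinuousFunction ℝ ℂ) (x y : H) :
    inner ℂ (D.apply f x) y = inner ℂ x (D.apply (star f) y) := by
  rw [apply_star, ContinuousLinearMap.adjoint_inner_right]

theorem character_apply (t u : ℝ) :
    LineCalculus.character t u = Complex.exp (Complex.I * ((t * u : ℝ) : ℂ)) := rfl

theorem character_zero : LineCalculus.character 0 = 1 := by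
  ext u; simp [character_apply]

theorem character_add (s t : ℝ) :
    LineCalculus.character (s + t) = LineCalculus.character s * LineCalculus.character t := by
  ext u
  simp only [character_apply, BoundedContinuousFunction.coe_mul, Pi.mul_apply]
  rw [← Complex.exp_add]
  congr 1
  push_cast
  ring

theorem star_character (t : ℝ) :
    star (LineCalculus.character t) = LineCalculus.character (-t) := by
  ext u
  simp only [BoundedContinuousFunction.star_apply, character_apply]
  rw [Complex.star_def, ← Complex.exp_conj]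
  congr 1
  simp [Complex.conj_ofReal]

theorem wave_zero : D.wave 0 = 1 := by
  simp [LineCalculus.wave, character_zero]

theorem wave_add (s t : ℝ) : D.wave (s + t) = D.wave s * D.wave t := by
  simp [LineCalculus.wave, character_add]

theorem wave_neg_wave (t : ℝ) (x : H) : D.wave (-t) (D.wave t x) = x := by
  have := wave_add D (-t) t
  rw [neg_add_cancel, wave_zero] at this
  exact (congrArg (fun A : H →L[ℂ] H => A x) this).symm

theorem wave_wave_neg (t : ℝ) (x : H) : D.wave t (D.wave (-t) x) = x := by
  have := wave_neg_wave D (-t) x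
  rwa [neg_neg] at this

theorem star_wave (t : ℝ) : star (D.wave t) = D.wave (-t) := by
  simp only [LineCalculus.wave]
  rw [← map_star, star_character]

theorem adjoint_wave (t : ℝ) : ContinuousLinearMap.adjoint (D.wave t) = D.wave (-t) :=
  star_wave D t

theorem norm_wave (t : ℝ) (x : H) : ‖D.wave t x‖ = ‖x‖ := by
  have h : inner ℂ (D.wave t x) (D.wave t x) = inner ℂ x x := by
    rw [← ContinuousLinearMap.adjoint_inner_right, adjoint_wave, wave_neg_wave]
  have h2 : ‖D.wave t x‖ ^ 2 = ‖x‖ ^ 2 := by
    have := congrArg Complex.re h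
    rw [inner_self_eq_norm_sq_to_K, inner_self_eq_norm_sq_to_K] at this
    exact_mod_cast this
  exact (sq_eq_sq₀ (norm_nonneg _) (norm_nonneg _)).mp h2

theorem wave_apply_comm (t : ℝ) (f : BoundedContinuousFunction ℝ ℂ) (x : H) :
    D.wave t (D.apply f x) = D.apply f (D.wave t x) :=
  apply_comm D _ _ x

/-- If `‖F u‖ ≤ 1` everywhere then `F(D)` is a contraction. -/
theorem norm_apply_apply_le_of_le_one (F : BoundedContinuousFunction ℝ ℂ) (hF : ∀ u, ‖F u‖ ≤ 1)
    (x : H) : ‖D.apply F x‖ ≤ ‖x‖ := by
  have h1 : ‖F‖ ≤ 1 := (BoundedContinuousFunction.norm_le zero_le_one).2 hF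
  calc ‖D.apply F x‖ ≤ ‖F‖ * ‖x‖ := norm_apply_apply_le D F x
    _ ≤ 1 * ‖x‖ := mul_le_mul_of_nonneg_right h1 (norm_nonneg _)
    _ = ‖x‖ := one_mul _

/-! ### Spectral subspaces -/

theorem supportedIn_zero (K : Set ℝ) : D.SupportedIn K 0 := fun f _ => by simp

theorem supportedIn_add {K : Set ℝ} {x y : H} (hx : D.SupportedIn K x) (hy : D.SupportedIn K y) :
    D.SupportedIn K (x + y) := fun f hf => by
  rw [map_add, hx f hf, hy f hf, add_zero]

theorem supportedIn_smul {K : Set ℝ} {x : H} (c : ℂ) (hx : D.SupportedIn K x) :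
    D.SupportedIn K (c • x) := fun f hf => by
  rw [map_smul, hx f hf, smul_zero]

theorem supportedIn_sum {K : Set ℝ} {ι : Type*} (s : Finset ι) (x : ι → H)
    (hx : ∀ i ∈ s, D.SupportedIn K (x i)) : D.SupportedIn K (∑ i ∈ s, x i) := fun f hf => by
  rw [map_sum]
  exact Finset.sum_eq_zero fun i hi => hx i hi f hf

theorem supportedIn_wave {K : Set ℝ} {x : H} (t : ℝ) (hx : D.SupportedIn K x) :
    D.SupportedIn K (D.wave t x) := fun f hf => by
  rw [← wave_apply_comm, hx f hf, map_zero]

theorem apply_eq_self_of_supportedIn {K : Set ℝ} {x : H} (f : BoundedContinuousFunction ℝ ℂ)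
    (hf : ∀ u ∈ K, f u = 1) (hx : D.SupportedIn K x) : D.apply f x = x := by
  have h := hx (f - 1) (fun u hu => by simp [hf u hu])
  rw [apply_sub, apply_one, sub_eq_zero] at h
  exact h

theorem supportedIn_apply_of_vanish {K : Set ℝ} (f : BoundedContinuousFunction ℝ ℂ)
    (hf : ∀ u, u ∉ K → f u = 0) (y : H) : D.SupportedIn K (D.apply f y) := fun g hg => by
  rw [← apply_mul]
  have : g * f = 0 := by
    ext u
    by_cases hu : u ∈ K
    · simp [hg u hu]
    · simp [hf u hu]
  rw [this, map_zero]; rfl

end Calc

end Crest.Agent.Helper72.S0112
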