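import Crest.Agent.Helper72.S0112.Pkg

/-! # S0112: assembly, front part (steps I.2, I.3, I.5 of notes/s0112/PROOF.md) -/

set_option autoImplicit false

namespace Crest.Agent.Helper72.S0112

open Crest.OpAlg Filter MeasureTheory Set
open scoped Topology BoundedContinuousFunction

variable {H : Type*} [NormedAddCommGroup H] [InnerProductSpace ℂ H] [CompleteSpace H]
variable {S : ModularDatum H}

/-! ### The modular flow on vectors -/

theorem flow_def (t : ℝ) (a : H →L[ℂ] H) : S.flow t a = S.D.wave t * a * S.D.wave (-t) := rfl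

theorem flow_vac (hvac : ∀ t, S.D.wave t S.vac = S.vac) (t : ℝ) (a : H →L[ℂ] H) :
    S.flow t a S.vac = S.D.wave t (a S.vac) := by
  simp [flow_def, hvac]

theorem star_flow (t : ℝ) (a : H →L[ℂ] H) : star (S.flow t a) = S.flow t (star a) := by
  simp only [flow_def, star_mul, Calc.star_wave, neg_neg, mul_assoc]

theorem flow_mul (t : ℝ) (a b : H →L[ℂ] H) : S.flow t a * S.flow t b = S.flow t (a * b) := by
  have h : S.D.wave (-t) * S.D.wave t = 1 := by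
    rw [← Calc.wave_add, neg_add_cancel, Calc.wave_zero]
  simp only [flow_def]
  calc S.D.wave t * a * S.D.wave (-t) * (S.D.wave t * b * S.D.wave (-t))
      = S.D.wave t * a * (S.D.wave (-t) * S.D.wave t) * b * S.D.wave (-t) := by
        simp only [mul_assoc]
    _ = S.D.wave t * (a * b) * S.D.wave (-t) := by rw [h]; simp only [mul_one, mul_assoc]

theorem flow_smul (t : ℝ) (c : ℂ) (a : H →L[ℂ] H) : S.flow t (c • a) = c • S.flow t a := by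
  simp [flow_def]

/-! ### Step I.2: a spectrally localised approximant in `M` -/

theorem exists_a (P : Pkg S) {C₀ : ℝ} (hker : KernelProp C₀) (s δ : ℝ) (hδ : 0 < δ) (h : H)
    (hband : S.D.SupportedIn (Icc (s - δ) (s + δ)) h) (ε : ℝ) (hε : 0 < ε) :
    ∃ a : H →L[ℂ] H, a ∈ S.M ∧ ‖a S.vac - h‖ ≤ ε ∧
      S.D.SupportedIn (Icc (s - 2 * δ) (s + 2 * δ)) (a S.vac) ∧
      S.D.SupportedIn (Icc (-(s + 2 * δ)) (-(s - 2 * δ))) (star a S.vac) := by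
  obtain ⟨f, hf, -, F, hF, hF1, hFone, hFzero⟩ := hker s δ hδ
  obtain ⟨y, hb, ⟨b, rfl⟩⟩ := Metric.dense_iff.1 S.cyclic h ε hε
  obtain ⟨a, haM, -, hav, hastar⟩ :=
    P.smooth f hf F hF (s - 2 * δ) (s + 2 * δ) hFzero (b : H →L[ℂ] H) b.2
  refine ⟨a, haM, ?_, ?_, hastar⟩
  · have h1 : S.D.apply F h = h := Calc.apply_eq_self_of_supportedIn S.D F hFone hband
    have h2 : a S.vac - h = S.D.apply F ((b : H →L[ℂ] H) S.vac - h) := by
      rw [map_sub, h1, hav]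
    rw [h2]
    refine (Calc.norm_apply_apply_le_of_le_one S.D F hF1 _).trans ?_
    have := Metric.mem_ball.1 hb
    rw [dist_eq_norm] at this
    exact this.le
  · rw [hav]
    exact Calc.supportedIn_apply_of_vanish S.D F hFzero _

/-! ### Step I.5 (second half): the final smoothing -/

theorem exists_final (P : Pkg S) {C₀ : ℝ} (hker : KernelProp C₀) (s δ : ℝ) (hδ : 0 < δ)
    (v' : H →L[ℂ] H) (hv' : v' ∈ S.M) (y : H)
    (hy : S.D.SupportedIn (Icc (s - 2 * δ) (s + 2 * δ)) y) :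
    ∃ v : H →L[ℂ] H, v ∈ S.M ∧ ‖v‖ ≤ C₀ * ‖v'‖ ∧
      S.D.SupportedIn (Icc (s - 4 * δ) (s + 4 * δ)) (v S.vac) ∧
      ‖v S.vac - y‖ ≤ ‖v' S.vac - y‖ := by
  obtain ⟨f, hf, hfC, F, hF, hF1, hFone, hFzero⟩ := hker s (2 * δ) (by positivity)
  have hFzero' : ∀ u, u ∉ Icc (s - 4 * δ) (s + 4 * δ) → F u = 0 := by
    intro u hu
    apply hFzero
    have e1 : s - 2 * (2 * δ) = s - 4 * δ := by ring
    have e2 : s + 2 * (2 * δ) = s + 4 * δ := by ring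
    rwa [e1, e2]
  obtain ⟨v, hvM, hvn, hvv, -⟩ := P.smooth f hf F hF (s - 4 * δ) (s + 4 * δ) hFzero' v' hv'
  refine ⟨v, hvM, ?_, ?_, ?_⟩
  · exact hvn.trans (mul_le_mul_of_nonneg_right hfC (norm_nonneg _))
  · rw [hvv]
    exact Calc.supportedIn_apply_of_vanish S.D F hFzero' _
  · have h1 : S.D.apply F y = y := Calc.apply_eq_self_of_supportedIn S.D F hFone hy
    have h2 : v S.vac - y = S.D.apply F (v' S.vac - y) := by
      rw [map_sub, h1, hvv]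
    rw [h2]
    exact Calc.norm_apply_apply_le_of_le_one S.D F hF1 _

/-! ### Step I.3: the window and the grid -/

theorem exists_grid (P : Pkg S) (G : Gen H) (ω : Ultrafilter ℕ) (hω : (ω : Filter ℕ) ≤ atTop)
    (T : H →L[ℂ] H) (c : ℝ) (hc : 0 < c) (h : H) (hh : ‖h‖ = 1)
    (hmean : c ≤ ultraMean ω (fun t : ℝ => ‖T (S.D.wave t h)‖ ^ 2)) (p₁ p₂ p₃ : H) :
    ∃ (k : ℝ) (N : ℕ), 0 < k ∧ 0 < N ∧
      ‖((N : ℝ)⁻¹ : ℝ) • ∑ i ∈ Finset.range N, S.D.wave (-k + 2 * k * i / N) p₁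
          - inner ℂ S.vac p₁ • S.vac‖ ≤ 1 / 2 ∧
      ‖((N : ℝ)⁻¹ : ℝ) • ∑ i ∈ Finset.range N, S.D.wave (-k + 2 * k * i / N) p₂
          - inner ℂ S.vac p₂ • S.vac‖ ≤ 1 / 2 ∧
      ‖((N : ℝ)⁻¹ : ℝ) • ∑ i ∈ Finset.range N, S.D.wave (-k + 2 * k * i / N) p₃
          - inner ℂ S.vac p₃ • S.vac‖ ≤ 1 / 2 ∧
      5 * c / 8 ≤ ((N : ℝ)⁻¹ : ℝ) * ∑ i ∈ Finset.range N, ‖T (S.D.wave (-k + 2 * k * i / N) h)‖ ^ 2 := by
  set f : ℝ → ℝ := fun t => ‖T (S.D.wave t h)‖ ^ 2 with hf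
  have hfc : Continuous f := by
    have : Continuous fun t => T (S.D.wave t h) := T.continuous.comp (P.cont h)
    exact (this.norm).pow 2
  have hf0 : ∀ t, 0 ≤ f t := fun t => by positivity
  have hfB : ∀ t, f t ≤ ‖T‖ ^ 2 := fun t => by
    have h1 : ‖T (S.D.wave t h)‖ ≤ ‖T‖ * ‖S.D.wave t h‖ := T.le_opNorm _
    rw [Calc.norm_wave, hh, mul_one] at h1
    exact pow_le_pow_left₀ (norm_nonneg _) h1 2
  have hU := G.ultra ω f hfc (‖T‖ ^ 2) hf0 hfB c hc hmean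
  have hE : ∀ p : H, ∀ᶠ k : ℕ in (ω : Filter ℕ),
      dist (((2 * (k : ℝ))⁻¹ : ℝ) • ∫ t in (-(k : ℝ))..(k : ℝ), S.D.wave t p)
        (inner ℂ S.vac p • S.vac) < 1 / 4 := fun p =>
    (Metric.tendsto_nhds.1 (P.ergodic p) (1 / 4) (by norm_num)).filter_mono hω
  have h1 : ∀ᶠ k : ℕ in (ω : Filter ℕ), 1 ≤ k := (eventually_ge_atTop 1).filter_mono hω
  obtain ⟨k, hkU, hk1, hk2, hk3, hkone⟩ :=
    (hU.and ((hE p₁).and ((hE p₂).and ((hE p₃).and h1)))).exists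
  have hkpos : (0 : ℝ) < (k : ℝ) := by exact_mod_cast hkone
  have hR : ∀ p : H, ∀ᶠ N : ℕ in atTop,
      dist (((N : ℝ)⁻¹ : ℝ) • ∑ i ∈ Finset.range N, S.D.wave (-(k : ℝ) + 2 * (k : ℝ) * i / N) p)
        (((2 * (k : ℝ))⁻¹ : ℝ) • ∫ t in (-(k : ℝ))..(k : ℝ), S.D.wave t p) < 1 / 4 := fun p =>
    Metric.tendsto_nhds.1 (G.riemannH (fun t => S.D.wave t p) (P.cont p) k hkpos) (1 / 4)
      (by norm_num)
  have hR0 : ∀ᶠ N : ℕ in atTop,
      5 * c / 8 < ((N : ℝ)⁻¹ : ℝ) * ∑ i ∈ Finset.range N, f (-(k : ℝ) + 2 * (k : ℝ) * i / N) :=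
    (tendsto_order.1 (G.riemannR f hfc k hkpos)).1 (5 * c / 8) (by linarith)
  obtain ⟨N, hN1, hN2, hN3, hN0, hNone⟩ :=
    ((hR p₁).and ((hR p₂).and ((hR p₃).and (hR0.and (eventually_ge_atTop 1))))).exists
  have tri : ∀ (g m l : H), dist g m < 1 / 4 → dist m l < 1 / 4 → ‖g - l‖ ≤ 1 / 2 := by
    intro g m l h1 h2
    rw [← dist_eq_norm]
    linarith [dist_triangle g m l]
  exact ⟨k, N, hkpos, hNone, tri _ _ _ hN1 hk1, tri _ _ _ hN2 hk2, tri _ _ _ hN3 hk3, hN0.le⟩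

/-! ### Constants -/

/-- The fourth-moment bound. -/
noncomputable def B₀ (s : ℝ) : ℝ := (11 / 4) ^ 2 + (11 / 4) * ((9 / 4) * Real.exp (s + 2) + 1 / 2)

theorem B₀_pos (s : ℝ) : 0 < B₀ s := by
  have := Real.exp_pos (s + 2)
  unfold B₀
  positivity

/-- The truncation level. -/
noncomputable def Rc (τ c s : ℝ) : ℝ := 2 * (τ ^ 2 + 1) * B₀ s / c

theorem Rc_pos (τ c s : ℝ) (hc : 0 < c) : 0 < Rc τ c s := by
  have := B₀_pos s
  unfold Rc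
  positivity

/-- The uniform operator-norm bound of the recovered elements. -/
noncomputable def Cst (C₀ τ c s : ℝ) : ℝ := C₀ * (Real.sqrt (Rc τ c s) / 2)

/-! ### Pointwise comparison of `‖T U_t y‖²` and `‖T U_t h‖²` -/

theorem sq_norm_le_of_close (T : H →L[ℂ] H) (u v : H) (ε c : ℝ) (hc : 0 < c)
    (hv : ‖v‖ = 1) (huv : ‖u - v‖ ≤ ε) (hε0 : 0 ≤ ε) (hε : ε ≤ 1 / 2)
    (hεc : ε ≤ c / (32 * (‖T‖ ^ 2 + 1))) : ‖T v‖ ^ 2 ≤ ‖T u‖ ^ 2 + c / 8 := by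
  set τ := ‖T‖ with hτ
  have hτ0 : 0 ≤ τ := norm_nonneg _
  have hu : ‖u‖ ≤ 3 / 2 := by
    have : ‖u‖ ≤ ‖u - v‖ + ‖v‖ := by simpa using norm_add_le (u - v) v
    linarith
  have hA : ‖T u‖ ≤ τ * (3 / 2) := (T.le_opNorm u).trans (mul_le_mul_of_nonneg_left hu hτ0)
  have hBA : ‖T v‖ ≤ ‖T u‖ + τ * ε := by
    have h1 : ‖T v‖ ≤ ‖T u‖ + ‖T (v - u)‖ := by
      have : T v = T u + T (v - u) := by rw [map_sub]; abel
      rw [this]; exact norm_add_le _ _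
    have h2 : ‖T (v - u)‖ ≤ τ * ε := by
      refine (T.le_opNorm _).trans (mul_le_mul_of_nonneg_left ?_ hτ0)
      rwa [norm_sub_rev]
    linarith
  have h3 : ‖T v‖ ^ 2 ≤ (‖T u‖ + τ * ε) ^ 2 := pow_le_pow_left₀ (norm_nonneg _) hBA 2
  have h4 : (‖T u‖ + τ * ε) ^ 2 ≤ ‖T u‖ ^ 2 + 4 * τ ^ 2 * ε := by
    have hε2 : ε ^ 2 ≤ ε / 2 := by nlinarith
    have hp : 0 ≤ τ * ε := mul_nonneg hτ0 hε0
    nlinarith [mul_le_mul_of_nonneg_right hA hp, mul_nonneg (sq_nonneg τ) hε0,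
      mul_le_mul_of_nonneg_left hε2 (sq_nonneg τ)]
  have h5 : 4 * τ ^ 2 * ε ≤ c / 8 := by
    have hpos : 0 < 32 * (τ ^ 2 + 1) := by positivity
    have h6 : ε * (32 * (τ ^ 2 + 1)) ≤ c := (le_div_iff₀ hpos).1 hεc
    nlinarith [sq_nonneg τ]
  linarith

end Crest.Agent.Helper72.S0112
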