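import Crest.Agent.Helper72.S0112.Main
import Crest.Agent.Helper4.S0112.Kernel
import Crest.Agent.Helper97.S0112.RiemannWindow
import Crest.Agent.Helper62.S0112.Phases
import Crest.Agent.Helper58.S0112.Resolvent
import Crest.Agent.Helper98.S0112.Frame
import Crest.Agent.Helper77.S0112.MeanErgodic
import Crest.Agent.Helper2.S0112.Kms

/-! # S0112: instantiation of the package interfaces from the landed packages

* B (kernel): `Helper4.exists_kernel_bcf`
* F (Riemann sums): `Helper97.riemann_window_tendsto`
* G (random phases): `Helper62.sum_norm_sq_psum`, `Helper62.sum_norm_sq_star_psum_le`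
* H (resolvent truncation): `Helper58.exists_truncation_min`
* I1 (ultrafilter mean): `Helper98.eventually_windowMean_gt`, `Helper97.windowMean_eq`
* A3/A5 (calculus): `Helper63.continuous_wave_apply`
* D (smoothing in `M`): `Helper77.exists_smooth`
* C (Tomita field): `Helper2.wave_vac`, `Helper2.norm_star_vac_le`, `Helper2.kms_vector`
* E (mean ergodic theorem + ergodicity): `Helper77.window_avg_tendsto`
-/

set_option autoImplicit false

namespace Crest.Agent.Helper72.S0112

open Crest.OpAlg Filter MeasureTheory Set
open scoped Topology BoundedContinuousFunction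

variable {H : Type*} [NormedAddCommGroup H] [InnerProductSpace ℂ H] [CompleteSpace H]

theorem kernelProp : ∃ C₀ : ℝ, 0 ≤ C₀ ∧ KernelProp C₀ :=
  Crest.Agent.Helper4.S0112.exists_kernel_bcf

theorem gen : Gen H where
  riemannH := fun Ψ hΨ k hk => Crest.Agent.Helper97.S0112.riemann_window_tendsto Ψ hΨ k hk
  riemannR := fun Ψ hΨ k hk => by
    have h := Crest.Agent.Helper97.S0112.riemann_window_tendsto Ψ hΨ k hk
    simpa only [smul_eq_mul] using h
  moment2 := fun N x T v => Crest.Agent.Helper62.S0112.sum_norm_sq_psum x T v
  moment4 := fun N x v => Crest.Agent.Helper62.S0112.sum_norm_sq_star_psum_le x v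
  trunc := fun v R hR => Crest.Agent.Helper58.S0112.exists_truncation_min v R hR
  ultra := fun ω f _ B h0 hB c hc h => by
    have h1 := Crest.Agent.Helper98.S0112.eventually_windowMean_gt ω f B h0 hB c hc h
    simpa only [Crest.Agent.Helper97.S0112.windowMean_eq] using h1

theorem pkg (S : ModularDatum H) (herg : S.Ergodic) : Pkg S where
  wave_vac := Crest.Agent.Helper2.S0112.wave_vac S
  cont := Crest.Agent.Helper63.S0112.continuous_wave_apply S.D
  smooth := fun f hf F hF α β hsupp a ha => by
    obtain ⟨a', h1, h2, h3, h4⟩ := Crest.Agent.Helper77.S0112.exists_smooth S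
      (Crest.Agent.Helper2.S0112.wave_vac S) f hf F hF α β hsupp a ha
    exact ⟨a', h1, h2, h3, h4⟩
  norm_star := fun a ha α β h => Crest.Agent.Helper2.S0112.norm_star_vac_le S a ha α β h
  kms := fun a ha α β h => Crest.Agent.Helper2.S0112.kms_vector S a ha α β h
  ergodic := fun z => Crest.Agent.Helper77.S0112.window_avg_tendsto S herg
    (Crest.Agent.Helper2.S0112.wave_vac S) z

end Crest.Agent.Helper72.S0112
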