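import Crest.Agent.Helper72.S0112.Front

/-! # S0112: assembly (steps I.4, I.6, I.7 of notes/s0112/PROOF.md)

`result_of_pkg` derives the statement of S0112 from the package interfaces `Pkg S`, `Gen H`
and `KernelProp C₀` of `Pkg.lean`. -/

set_option autoImplicit false

namespace Crest.Agent.Helper72.S0112

open Crest.OpAlg Filter MeasureTheory Set
open scoped Topology BoundedContinuousFunction

variable {H : Type*} [NormedAddCommGroup H] [InnerProductSpace ℂ H] [CompleteSpace H]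
variable {S : ModularDatum H}

/-! ### The grid operators -/

/-- The rescaled flow translates `ν • σ_t(a)`. -/
noncomputable def xop (S : ModularDatum H) (ν t : ℝ) (a : H →L[ℂ] H) : H →L[ℂ] H :=
  (ν : ℂ) • S.flow t a

theorem xop_mem (ν t : ℝ) {a : H →L[ℂ] H} (ha : a ∈ S.M) : xop S ν t a ∈ S.M := by
  show _ ∈ S.M.toStarSubalgebra
  exact SMulMemClass.smul_mem _ (S.flow_mem t a ha)

theorem xop_vac (hvac : ∀ t, S.D.wave t S.vac = S.vac) (ν t : ℝ) (a : H →L[ℂ] H) :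
    xop S ν t a S.vac = (ν : ℂ) • S.D.wave t (a S.vac) := by
  simp [xop, flow_vac hvac]

theorem star_xop (ν t : ℝ) (a : H →L[ℂ] H) : star (xop S ν t a) = xop S ν t (star a) := by
  simp [xop, star_smul, star_flow]

theorem star_xop_mul_vac (hvac : ∀ t, S.D.wave t S.vac = S.vac) (ν t : ℝ) (a : H →L[ℂ] H) :
    (star (xop S ν t a) * xop S ν t a) S.vac
      = ((ν ^ 2 : ℝ) : ℂ) • S.D.wave t (star a (a S.vac)) := by
  rw [star_xop]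
  have h : xop S ν t (star a) * xop S ν t a = ((ν ^ 2 : ℝ) : ℂ) • S.flow t (star a * a) := by
    simp only [xop, smul_mul_smul_comm, flow_mul]
    congr 1
    push_cast; ring
  rw [h, _root_.smul_apply, flow_vac hvac]
  rfl

theorem xop_mul_star_vac (hvac : ∀ t, S.D.wave t S.vac = S.vac) (ν t : ℝ) (a : H →L[ℂ] H) :
    (xop S ν t a * star (xop S ν t a)) S.vac
      = ((ν ^ 2 : ℝ) : ℂ) • S.D.wave t (a (star a S.vac)) := by
  rw [star_xop]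
  have h : xop S ν t a * xop S ν t (star a) = ((ν ^ 2 : ℝ) : ℂ) • S.flow t (a * star a) := by
    simp only [xop, smul_mul_smul_comm, flow_mul]
    congr 1
    push_cast; ring
  rw [h, _root_.smul_apply, flow_vac hvac]
  rfl

/-- The phase sums. -/
noncomputable def vsum (S : ModularDatum H) (a : H →L[ℂ] H) (N : ℕ) (tt : ℕ → ℝ)
    (θ : Fin N → Fin 4) : H →L[ℂ] H :=
  ∑ i : Fin N, ph (θ i) • xop S (Real.sqrt N)⁻¹ (tt i) a

theorem vsum_mem {a : H →L[ℂ] H} (ha : a ∈ S.M) (N : ℕ) (tt : ℕ → ℝ) (θ : Fin N → Fin 4) :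
    vsum S a N tt θ ∈ S.M := by
  show _ ∈ S.M.toStarSubalgebra
  exact sum_mem fun i _ => SMulMemClass.smul_mem _ (xop_mem _ _ ha)

theorem supportedIn_vsum (hvac : ∀ t, S.D.wave t S.vac = S.vac) {K : Set ℝ} {a : H →L[ℂ] H}
    (hy : S.D.SupportedIn K (a S.vac)) (N : ℕ) (tt : ℕ → ℝ) (θ : Fin N → Fin 4) :
    S.D.SupportedIn K (vsum S a N tt θ S.vac) := by
  unfold vsum
  rw [_root_.sum_apply]
  refine Calc.supportedIn_sum S.D _ _ fun i _ => ?_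
  rw [_root_.smul_apply, xop_vac hvac]
  exact Calc.supportedIn_smul S.D _ (Calc.supportedIn_smul S.D _ (Calc.supportedIn_wave S.D _ hy))

theorem inv_sqrt_sq (N : ℕ) : ((Real.sqrt N)⁻¹) ^ 2 = ((N : ℝ))⁻¹ := by
  rw [inv_pow, Real.sq_sqrt (Nat.cast_nonneg N)]

/-- Second moment of the phase sums (uses package G1). -/
theorem second_moment_eq (hvac : ∀ t, S.D.wave t S.vac = S.vac) (G : Gen H) (T : H →L[ℂ] H)
    (a : H →L[ℂ] H) (N : ℕ) (tt : ℕ → ℝ) :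
    ∑ θ : Fin N → Fin 4, ‖T (vsum S a N tt θ S.vac)‖ ^ 2
      = 4 ^ N * ((N : ℝ)⁻¹ * ∑ i ∈ Finset.range N, ‖T (S.D.wave (tt i) (a S.vac))‖ ^ 2) := by
  have h := G.moment2 N (fun i : Fin N => xop S (Real.sqrt N)⁻¹ (tt i) a) T S.vac
  unfold vsum
  rw [h]
  congr 1
  rw [← Fin.sum_univ_eq_sum_range (fun i => ‖T (S.D.wave (tt i) (a S.vac))‖ ^ 2) N,
    Finset.mul_sum]
  refine Finset.sum_congr rfl fun i _ => ?_
  rw [xop_vac hvac, map_smul, norm_smul, mul_pow, Complex.norm_real, Real.norm_eq_abs, sq_abs,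
    inv_sqrt_sq]
/-- Fourth moment of the phase sums (uses package G2 and the KMS vector `w`). -/
theorem fourth_moment_le (hvac : ∀ t, S.D.wave t S.vac = S.vac) (G : Gen H)
    {a : H →L[ℂ] H} (ha : a ∈ S.M) (w : H)
    (hw : ∀ (t : ℝ) (r : H →L[ℂ] H), r ∈ S.M →
      inner ℂ (S.flow t a S.vac) (r (S.flow t a S.vac)) = inner ℂ (S.D.wave t w) (r S.vac))
    (N : ℕ) (tt : ℕ → ℝ) (b₁ b₂ b₃ : ℝ)
    (h1 : ‖((N : ℝ)⁻¹ : ℝ) • ∑ i ∈ Finset.range N, S.D.wave (tt i) (star a (a S.vac))‖ ≤ b₁)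
    (h2 : ‖((N : ℝ)⁻¹ : ℝ) • ∑ i ∈ Finset.range N, S.D.wave (tt i) (a (star a S.vac))‖ ≤ b₂)
    (h3 : ‖((N : ℝ)⁻¹ : ℝ) • ∑ i ∈ Finset.range N, S.D.wave (tt i) w‖ ≤ b₃) :
    ∑ θ : Fin N → Fin 4, ‖star (vsum S a N tt θ) (vsum S a N tt θ S.vac)‖ ^ 2
      ≤ 4 ^ N * (b₁ ^ 2 + b₃ * b₂) := by
  set x : Fin N → H →L[ℂ] H := fun i => xop S (Real.sqrt N)⁻¹ (tt i) a with hx
  have h := G.moment4 N x S.vac
  have hν : (((Real.sqrt N)⁻¹ ^ 2 : ℝ) : ℂ) = (((N : ℝ)⁻¹ : ℝ) : ℂ) := by rw [inv_sqrt_sq]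
  -- the first sum
  have e1 : (∑ i, star (x i) * x i) S.vac
      = ((N : ℝ)⁻¹ : ℝ) • ∑ i ∈ Finset.range N, S.D.wave (tt i) (star a (a S.vac)) := by
    rw [_root_.sum_apply,
      ← Fin.sum_univ_eq_sum_range (fun i => S.D.wave (tt i) (star a (a S.vac))) N,
      ← Complex.coe_smul, Finset.smul_sum]
    refine Finset.sum_congr rfl fun i _ => ?_
    rw [hx, star_xop_mul_vac hvac, hν]
  -- the second sum
  have e2 : (∑ i, x i * star (x i)) S.vac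
      = ((N : ℝ)⁻¹ : ℝ) • ∑ i ∈ Finset.range N, S.D.wave (tt i) (a (star a S.vac)) := by
    rw [_root_.sum_apply,
      ← Fin.sum_univ_eq_sum_range (fun i => S.D.wave (tt i) (a (star a S.vac))) N,
      ← Complex.coe_smul, Finset.smul_sum]
    refine Finset.sum_congr rfl fun i _ => ?_
    rw [hx, xop_mul_star_vac hvac, hν]
  have hr : (∑ i, x i * star (x i)) ∈ S.M := by
    show _ ∈ S.M.toStarSubalgebra
    exact sum_mem fun i _ => mul_mem (xop_mem _ _ ha) (star_mem (xop_mem _ _ ha))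
  -- the cross terms
  have e3 : ∀ j : Fin N, inner ℂ (x j S.vac) ((∑ i, x i * star (x i)) (x j S.vac))
      = (((N : ℝ)⁻¹ : ℝ) : ℂ) * inner ℂ (S.D.wave (tt j) w) ((∑ i, x i * star (x i)) S.vac) := by
    intro j
    have hxj : x j S.vac = (((Real.sqrt N)⁻¹ : ℝ) : ℂ) • S.flow (tt j) a S.vac := rfl
    rw [hxj, map_smul, inner_smul_left, inner_smul_right, hw (tt j) _ hr, ← mul_assoc,
      Complex.conj_ofReal, ← hν]
    congr 1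
    push_cast; ring
  have e4 : ∑ j, (inner ℂ (x j S.vac) ((∑ i, x i * star (x i)) (x j S.vac))).re
      = (inner ℂ (((N : ℝ)⁻¹ : ℝ) • ∑ i ∈ Finset.range N, S.D.wave (tt i) w)
          ((∑ i, x i * star (x i)) S.vac)).re := by
    rw [← Complex.re_sum]
    congr 1
    rw [← Complex.coe_smul, inner_smul_left, Complex.conj_ofReal, sum_inner, Finset.mul_sum,
      ← Fin.sum_univ_eq_sum_range
        (fun i => (((N : ℝ)⁻¹ : ℝ) : ℂ) * inner ℂ (S.D.wave (tt i) w)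
          ((∑ i, x i * star (x i)) S.vac)) N]
    exact Finset.sum_congr rfl fun j _ => e3 j
  have hb₂ : 0 ≤ b₂ := (norm_nonneg _).trans h2
  have hb₁ : 0 ≤ b₁ := (norm_nonneg _).trans h1
  have e5 : ∑ j, (inner ℂ (x j S.vac) ((∑ i, x i * star (x i)) (x j S.vac))).re ≤ b₃ * b₂ := by
    rw [e4]
    refine (Complex.re_le_norm _).trans ((norm_inner_le_norm _ _).trans ?_)
    rw [e2]
    exact mul_le_mul h3 h2 (norm_nonneg _) ((norm_nonneg _).trans h3)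
  have e6 : ‖(∑ i, star (x i) * x i) S.vac‖ ^ 2 ≤ b₁ ^ 2 := by
    rw [e1]
    exact pow_le_pow_left₀ (norm_nonneg _) h1 2
  refine h.trans ?_
  have h4 : (0 : ℝ) ≤ 4 ^ N := by positivity
  exact mul_le_mul_of_nonneg_left (add_le_add e6 e5) h4
/-! ### Step I.5: truncation and final smoothing of one phase sum -/

theorem exists_trunc_final (P : Pkg S) (G : Gen H) {C₀ : ℝ} (hC₀ : 0 ≤ C₀)
    (hker : KernelProp C₀) (s δ : ℝ) (hδ : 0 < δ) (V : H →L[ℂ] H) (hV : V ∈ S.M)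
    (hsupp : S.D.SupportedIn (Icc (s - 2 * δ) (s + 2 * δ)) (V S.vac)) (R : ℝ) (hR : 0 < R) :
    ∃ v : H →L[ℂ] H, v ∈ S.M ∧ ‖v‖ ≤ C₀ * (Real.sqrt R / 2) ∧
      S.D.SupportedIn (Icc (s - 4 * δ) (s + 4 * δ)) (v S.vac) ∧
      ‖v S.vac - V S.vac‖ ≤ ‖star V (V S.vac)‖ / (2 * Real.sqrt R) := by
  obtain ⟨w', h1, h2, h3⟩ := G.trunc V R hR
  obtain ⟨v, hvM, hvn, hvs, hvd⟩ := exists_final P hker s δ hδ (V * w') (h3 S.M hV) (V S.vac) hsupp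
  refine ⟨v, hvM, hvn.trans (mul_le_mul_of_nonneg_left h1 hC₀), hvs, hvd.trans ?_⟩
  rw [norm_sub_rev]
  exact h2 S.vac

/-- The elementary inequality behind the selection step. -/
theorem sq_norm_apply_le (T : H →L[ℂ] H) (p q : H) (m R : ℝ) (hR : 0 < R)
    (hq : ‖q - p‖ ≤ m / (2 * Real.sqrt R)) :
    ‖T p‖ ^ 2 ≤ 2 * ‖T q‖ ^ 2 + ‖T‖ ^ 2 / (2 * R) * m ^ 2 := by
  have hsq : 0 < Real.sqrt R := Real.sqrt_pos.2 hR
  have hm : 0 ≤ m := by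
    have h0 : 0 ≤ m / (2 * Real.sqrt R) := (norm_nonneg _).trans hq
    have := mul_nonneg h0 (by positivity : (0:ℝ) ≤ 2 * Real.sqrt R)
    rwa [div_mul_cancel₀ _ (by positivity : (2 * Real.sqrt R) ≠ 0)] at this
  have h1 : ‖T p‖ ≤ ‖T q‖ + ‖T‖ * ‖q - p‖ := by
    have : T p = T q - T (q - p) := by rw [map_sub]; abel
    rw [this]
    exact (norm_sub_le _ _).trans (add_le_add le_rfl (T.le_opNorm _))
  have h2 : ‖q - p‖ ^ 2 ≤ m ^ 2 / (4 * R) := by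
    have := pow_le_pow_left₀ (norm_nonneg _) hq 2
    rw [div_pow, mul_pow, Real.sq_sqrt hR.le] at this
    have e : (2 : ℝ) ^ 2 * R = 4 * R := by norm_num
    rwa [e] at this
  have h3 : ‖T p‖ ^ 2 ≤ (‖T q‖ + ‖T‖ * ‖q - p‖) ^ 2 := pow_le_pow_left₀ (norm_nonneg _) h1 2
  have h4 : (‖T q‖ + ‖T‖ * ‖q - p‖) ^ 2 ≤ 2 * ‖T q‖ ^ 2 + 2 * (‖T‖ ^ 2 * ‖q - p‖ ^ 2) := by
    nlinarith [sq_nonneg (‖T q‖ - ‖T‖ * ‖q - p‖)]
  have h5 : 2 * (‖T‖ ^ 2 * ‖q - p‖ ^ 2) ≤ ‖T‖ ^ 2 / (2 * R) * m ^ 2 := by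
    have : ‖T‖ ^ 2 / (2 * R) * m ^ 2 = 2 * (‖T‖ ^ 2 * (m ^ 2 / (4 * R))) := by
      field_simp; ring
    rw [this]
    exact mul_le_mul_of_nonneg_left (mul_le_mul_of_nonneg_left h2 (sq_nonneg _)) (by norm_num)
  linarith
/-! ### The per-`n` core (steps I.2 - I.6) -/

theorem construct (P : Pkg S) (G : Gen H) {C₀ : ℝ} (hC₀ : 0 ≤ C₀) (hker : KernelProp C₀)
    (ω : Ultrafilter ℕ) (hω : (ω : Filter ℕ) ≤ atTop) (T : H →L[ℂ] H) (s δ : ℝ) (hδ : 0 < δ)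
    (hδ1 : δ ≤ 1) (h : H) (hh : ‖h‖ = 1)
    (hband : S.D.SupportedIn (Icc (s - δ) (s + δ)) h) (c : ℝ) (hc : 0 < c)
    (hmean : c ≤ ultraMean ω (fun t : ℝ => ‖T (S.D.wave t h)‖ ^ 2)) :
    ∃ v : H →L[ℂ] H, v ∈ S.M ∧ ‖v‖ ≤ Cst C₀ ‖T‖ c s ∧ Real.sqrt (c / 8) ≤ ‖T (v S.vac)‖ ∧
      S.D.SupportedIn (Icc (s - 4 * δ) (s + 4 * δ)) (v S.vac) := by
  have hvac := P.wave_vac
  set τ := ‖T‖ with hτ
  set ε₀ : ℝ := min (1 / 2) (c / (32 * (τ ^ 2 + 1))) with hε₀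
  have hε₀pos : 0 < ε₀ := lt_min (by norm_num) (by positivity)
  have hε₀half : ε₀ ≤ 1 / 2 := min_le_left _ _
  have hε₀c : ε₀ ≤ c / (32 * (τ ^ 2 + 1)) := min_le_right _ _
  obtain ⟨a, haM, hah, hsa, hsstar⟩ := exists_a P hker s δ hδ h hband ε₀ hε₀pos
  have hynorm : ‖a S.vac‖ ≤ 3 / 2 := by
    have : ‖a S.vac‖ ≤ ‖a S.vac - h‖ + ‖h‖ := by simpa using norm_add_le (a S.vac - h) h
    linarith
  have hy2 : ‖a S.vac‖ ^ 2 ≤ 9 / 4 := by nlinarith [norm_nonneg (a S.vac)]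
  have hznorm : ‖star a S.vac‖ ≤ Real.exp ((s + 2 * δ) / 2) * ‖a S.vac‖ :=
    P.norm_star a haM _ _ hsa
  have hz2 : ‖star a S.vac‖ ^ 2 ≤ 9 / 4 * Real.exp (s + 2) := by
    have h1 : ‖star a S.vac‖ ^ 2 ≤ (Real.exp ((s + 2 * δ) / 2) * ‖a S.vac‖) ^ 2 :=
      pow_le_pow_left₀ (norm_nonneg _) hznorm 2
    have h2 : (Real.exp ((s + 2 * δ) / 2)) ^ 2 = Real.exp (s + 2 * δ) := by
      rw [← Real.exp_nat_mul]; congr 1; push_cast; ring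
    have h3 : Real.exp (s + 2 * δ) ≤ Real.exp (s + 2) := Real.exp_le_exp.2 (by linarith)
    rw [mul_pow, h2] at h1
    have h4 := Real.exp_pos (s + 2 * δ)
    nlinarith [sq_nonneg ‖a S.vac‖]
  obtain ⟨w, hw1, hw2⟩ := P.kms a haM _ _ hsstar
  have hp1 : inner ℂ S.vac (star a (a S.vac)) = ((‖a S.vac‖ ^ 2 : ℝ) : ℂ) := by
    rw [ContinuousLinearMap.star_eq_adjoint, ContinuousLinearMap.adjoint_inner_right,
      inner_self_eq_norm_sq_to_K]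
    push_cast; rfl
  have hp2 : inner ℂ S.vac (a (star a S.vac)) = ((‖star a S.vac‖ ^ 2 : ℝ) : ℂ) := by
    rw [← ContinuousLinearMap.adjoint_inner_left, ← ContinuousLinearMap.star_eq_adjoint,
      inner_self_eq_norm_sq_to_K]
    push_cast; rfl
  obtain ⟨k, N, hk, hN, hg1, hg2, hg3, hT⟩ :=
    exists_grid P G ω hω T c hc h hh hmean (star a (a S.vac)) (a (star a S.vac)) w
  set tt : ℕ → ℝ := fun i => -k + 2 * k * i / N with htt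
  have hNpos : (0 : ℝ) < N := by exact_mod_cast hN
  have hvn : ∀ r : ℝ, 0 ≤ r → ‖((r : ℝ) : ℂ) • S.vac‖ = r := fun r hr => by
    rw [norm_smul, S.norm_vac, mul_one, Complex.norm_real, Real.norm_eq_abs, abs_of_nonneg hr]
  have tri : ∀ (g m : H) (b : ℝ), ‖g - m‖ ≤ 1 / 2 → ‖m‖ ≤ b → ‖g‖ ≤ b + 1 / 2 := by
    intro g m b h1 h2
    have : ‖g‖ ≤ ‖g - m‖ + ‖m‖ := by simpa using norm_add_le (g - m) m
    linarith
  have hb1 : ‖((N : ℝ)⁻¹ : ℝ) • ∑ i ∈ Finset.range N, S.D.wave (tt i) (star a (a S.vac))‖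
      ≤ 11 / 4 := by
    have := tri _ _ (9 / 4) hg1 (by rw [hp1, hvn _ (sq_nonneg _)]; exact hy2)
    linarith
  have hb2 : ‖((N : ℝ)⁻¹ : ℝ) • ∑ i ∈ Finset.range N, S.D.wave (tt i) (a (star a S.vac))‖
      ≤ 9 / 4 * Real.exp (s + 2) + 1 / 2 :=
    tri _ _ _ hg2 (by rw [hp2, hvn _ (sq_nonneg _)]; exact hz2)
  have hb3 : ‖((N : ℝ)⁻¹ : ℝ) • ∑ i ∈ Finset.range N, S.D.wave (tt i) w‖ ≤ 11 / 4 := by
    have := tri _ _ (9 / 4) hg3 (by rw [hw1, hvn _ (sq_nonneg _)]; exact hy2)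
    linarith
  have m4 : ∑ θ : Fin N → Fin 4, ‖star (vsum S a N tt θ) (vsum S a N tt θ S.vac)‖ ^ 2
      ≤ 4 ^ N * B₀ s :=
    fourth_moment_le hvac G haM w hw2 N tt _ _ _ hb1 hb2 hb3
  have m2 := second_moment_eq hvac G T a N tt
  have hlow : c / 2 ≤ (N : ℝ)⁻¹ * ∑ i ∈ Finset.range N, ‖T (S.D.wave (tt i) (a S.vac))‖ ^ 2 := by
    have hpt : ∀ i : ℕ, ‖T (S.D.wave (tt i) h)‖ ^ 2
        ≤ ‖T (S.D.wave (tt i) (a S.vac))‖ ^ 2 + c / 8 := fun i =>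
      sq_norm_le_of_close T _ _ ε₀ c hc (by rw [Calc.norm_wave]; exact hh)
        (by rw [← map_sub, Calc.norm_wave]; exact hah) hε₀pos.le hε₀half hε₀c
    have hsum : ∑ i ∈ Finset.range N, ‖T (S.D.wave (tt i) h)‖ ^ 2
        ≤ ∑ i ∈ Finset.range N, ‖T (S.D.wave (tt i) (a S.vac))‖ ^ 2 + N * (c / 8) := by
      calc ∑ i ∈ Finset.range N, ‖T (S.D.wave (tt i) h)‖ ^ 2
          ≤ ∑ i ∈ Finset.range N, (‖T (S.D.wave (tt i) (a S.vac))‖ ^ 2 + c / 8) :=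
            Finset.sum_le_sum fun i _ => hpt i
        _ = _ := by
            rw [Finset.sum_add_distrib, Finset.sum_const, Finset.card_range, nsmul_eq_mul]
    have h1 : (N : ℝ)⁻¹ * ∑ i ∈ Finset.range N, ‖T (S.D.wave (tt i) h)‖ ^ 2
        ≤ (N : ℝ)⁻¹ * (∑ i ∈ Finset.range N, ‖T (S.D.wave (tt i) (a S.vac))‖ ^ 2 + N * (c / 8)) :=
      mul_le_mul_of_nonneg_left hsum (inv_nonneg.2 hNpos.le)
    have e : (N : ℝ)⁻¹ * (∑ i ∈ Finset.range N, ‖T (S.D.wave (tt i) (a S.vac))‖ ^ 2 + N * (c / 8))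
        = (N : ℝ)⁻¹ * ∑ i ∈ Finset.range N, ‖T (S.D.wave (tt i) (a S.vac))‖ ^ 2 + c / 8 := by
      field_simp
    linarith
  set R := Rc τ c s with hRdef
  have hR : 0 < R := Rc_pos τ c s hc
  have hex : ∀ θ : Fin N → Fin 4, ∃ v : H →L[ℂ] H, v ∈ S.M ∧ ‖v‖ ≤ C₀ * (Real.sqrt R / 2) ∧
      S.D.SupportedIn (Icc (s - 4 * δ) (s + 4 * δ)) (v S.vac) ∧
      ‖v S.vac - vsum S a N tt θ S.vac‖
        ≤ ‖star (vsum S a N tt θ) (vsum S a N tt θ S.vac)‖ / (2 * Real.sqrt R) := fun θ =>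
    exists_trunc_final P G hC₀ hker s δ hδ _ (vsum_mem haM N tt θ)
      (supportedIn_vsum hvac hsa N tt θ) R hR
  choose v hvM hvnorm hvs hvd using hex
  have hper : ∀ θ, ‖T (vsum S a N tt θ S.vac)‖ ^ 2 ≤ 2 * ‖T (v θ S.vac)‖ ^ 2
      + τ ^ 2 / (2 * R) * ‖star (vsum S a N tt θ) (vsum S a N tt θ S.vac)‖ ^ 2 := fun θ =>
    sq_norm_apply_le T _ _ _ R hR (hvd θ)
  have h4N : (0 : ℝ) < 4 ^ N := by positivity
  have hτR : 0 ≤ τ ^ 2 / (2 * R) := by positivity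
  have hsum : (4 : ℝ) ^ N * (c / 2)
      ≤ 2 * ∑ θ, ‖T (v θ S.vac)‖ ^ 2 + τ ^ 2 / (2 * R) * (4 ^ N * B₀ s) := by
    calc (4 : ℝ) ^ N * (c / 2)
        ≤ 4 ^ N * ((N : ℝ)⁻¹ * ∑ i ∈ Finset.range N, ‖T (S.D.wave (tt i) (a S.vac))‖ ^ 2) :=
          mul_le_mul_of_nonneg_left hlow h4N.le
      _ = ∑ θ : Fin N → Fin 4, ‖T (vsum S a N tt θ S.vac)‖ ^ 2 := m2.symm
      _ ≤ ∑ θ : Fin N → Fin 4, (2 * ‖T (v θ S.vac)‖ ^ 2
            + τ ^ 2 / (2 * R) * ‖star (vsum S a N tt θ) (vsum S a N tt θ S.vac)‖ ^ 2) :=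
          Finset.sum_le_sum fun θ _ => hper θ
      _ = 2 * ∑ θ, ‖T (v θ S.vac)‖ ^ 2 + τ ^ 2 / (2 * R)
            * ∑ θ : Fin N → Fin 4, ‖star (vsum S a N tt θ) (vsum S a N tt θ S.vac)‖ ^ 2 := by
          rw [Finset.sum_add_distrib, Finset.mul_sum, Finset.mul_sum]
      _ ≤ _ := add_le_add le_rfl (mul_le_mul_of_nonneg_left m4 hτR)
  have hRB : τ ^ 2 / (2 * R) * B₀ s ≤ c / 4 := by
    have hB := B₀_pos s
    have e : τ ^ 2 / (2 * R) * B₀ s = c / 4 * (τ ^ 2 / (τ ^ 2 + 1)) := by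
      rw [hRdef]; unfold Rc
      field_simp
      ring
    rw [e]
    have h1 : τ ^ 2 / (τ ^ 2 + 1) ≤ 1 := (div_le_one (by positivity)).2 (by linarith)
    nlinarith
  have hfin : ∑ _θ : Fin N → Fin 4, c / 8 ≤ ∑ θ, ‖T (v θ S.vac)‖ ^ 2 := by
    have hcard : ∑ _θ : Fin N → Fin 4, c / 8 = 4 ^ N * (c / 8) := by
      simp [Finset.card_univ]
    rw [hcard]
    have h5 : τ ^ 2 / (2 * R) * (4 ^ N * B₀ s) ≤ 4 ^ N * (c / 4) := by
      calc τ ^ 2 / (2 * R) * (4 ^ N * B₀ s) = 4 ^ N * (τ ^ 2 / (2 * R) * B₀ s) := by ring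
        _ ≤ 4 ^ N * (c / 4) := mul_le_mul_of_nonneg_left hRB h4N.le
    nlinarith
  obtain ⟨θ, -, hθ⟩ := Finset.exists_le_of_sum_le Finset.univ_nonempty hfin
  refine ⟨v θ, hvM θ, hvnorm θ, ?_, hvs θ⟩
  rw [← Real.sqrt_sq (norm_nonneg (T (v θ S.vac)))]
  exact Real.sqrt_le_sqrt hθ
/-! ### Step I.7: the statement of S0112 from the packages -/

theorem result_of_pkg (P : Pkg S) (G : Gen H) {C₀ : ℝ} (hC₀ : 0 ≤ C₀) (hker : KernelProp C₀)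
    (ω : Ultrafilter ℕ) (hω : (ω : Filter ℕ) ≤ Filter.atTop)
    (T : H →L[ℂ] H) (s : ℝ) (δ : ℕ → ℝ) (hδ : ∀ n, 0 < δ n)
    (hδ0 : Filter.Tendsto δ Filter.atTop (nhds 0))
    (h : ℕ → H) (hh : ∀ n, ‖h n‖ = 1)
    (hband : ∀ n, S.D.SupportedIn (Set.Icc (s - δ n) (s + δ n)) (h n))
    (hpos : ∃ c : ℝ, 0 < c ∧ ∃ᶠ n in Filter.atTop,
      c ≤ Crest.OpAlg.ultraMean ω (fun t : ℝ => ‖T (S.D.wave t (h n))‖ ^ 2)) :
    ∃ (n' : ℕ → ℕ) (v : ℕ → (H →L[ℂ] H)) (C η : ℝ), StrictMono n' ∧ 0 < η ∧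
      ∀ j : ℕ, v j ∈ S.M ∧ ‖v j‖ ≤ C ∧ η ≤ ‖T (v j S.vac)‖ ∧
        S.D.SupportedIn (Set.Icc (s - 4 * δ (n' j)) (s + 4 * δ (n' j))) (v j S.vac) := by
  obtain ⟨c, hc, hfreq⟩ := hpos
  have hev : ∀ᶠ n in atTop, δ n ≤ 1 :=
    hδ0.eventually (eventually_le_nhds (by norm_num : (0 : ℝ) < 1))
  have hfreq' : ∃ᶠ n in atTop,
      c ≤ ultraMean ω (fun t : ℝ => ‖T (S.D.wave t (h n))‖ ^ 2) ∧ δ n ≤ 1 :=
    hfreq.and_eventually hev
  obtain ⟨n', hn', hP⟩ := Filter.extraction_of_frequently_atTop hfreq'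
  have hex : ∀ j, ∃ v : H →L[ℂ] H, v ∈ S.M ∧ ‖v‖ ≤ Cst C₀ ‖T‖ c s ∧
      Real.sqrt (c / 8) ≤ ‖T (v S.vac)‖ ∧
      S.D.SupportedIn (Icc (s - 4 * δ (n' j)) (s + 4 * δ (n' j))) (v S.vac) := fun j =>
    construct P G hC₀ hker ω hω T s (δ (n' j)) (hδ _) (hP j).2 (h (n' j)) (hh _) (hband _) c hc
      (hP j).1
  choose v hv using hex
  exact ⟨n', v, Cst C₀ ‖T‖ c s, Real.sqrt (c / 8), hn', Real.sqrt_pos.2 (by positivity), hv⟩

end Crest.Agent.Helper72.S0112
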